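import Mathlib
import Vale.Agent.Lib.P037.Defs
import Vale.Agent.Lib.P037.helper29.Cut
import Vale.Agent.Lib.P037.helper17.Samp

/-!
The corner pattern `[[1, 0], [0, 0]]`: cleaning a host matrix relative to a sample `f` of
columns and a sample `h` of anchor rows.

Step 1 fills a small set of rows with ones so that no copy is left inside the sampled columns.
Step 2 truncates (sets to one from some column on) every row that, for some pair of sampled
columns, is zero in both and lies strictly below every anchor row that is zero in both.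
Neither step creates a copy.
-/

namespace Vale.Agent.Lib.P037.helper17.Corner

open Finset Vale.Agent.Lib.P037 Vale.Agent.Lib.P037.helper29

variable {n r2 m : ℕ}

/-- `(i, j, c, d)` is a copy of `[[1, 0], [0, 0]]` in `A`. -/
def Cq (A : BMat n) (i j c d : Fin n) : Prop :=
  i < j ∧ c < d ∧ A i c = true ∧ A i d = false ∧ A j c = false ∧ A j d = false

instance (A : BMat n) (i j c d : Fin n) : Decidable (Cq A i j c d) := by
  unfold Cq; infer_instance

/-- Top rows of copies on the columns `c < d`. -/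
def XS (A : BMat n) (c d x : Fin n) : Prop := c < d ∧ A x c = true ∧ A x d = false

instance (A : BMat n) (c d : Fin n) : DecidablePred (XS A c d) := by
  intro x; unfold XS; infer_instance

/-- Bottom rows of copies on the columns `c`, `d`. -/
def YS (A : BMat n) (c d y : Fin n) : Prop := A y c = false ∧ A y d = false

instance (A : BMat n) (c d : Fin n) : DecidablePred (YS A c d) := by
  intro y; unfold YS; infer_instance

/-- Number of copies on the columns `c`, `d`. -/
def Mc (A : BMat n) (c d : Fin n) : ℕ := (inv (XS A c d) (YS A c d)).card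

/-- A small set of rows meeting every copy on the columns `c`, `d`. -/
def cutC (A : BMat n) (c d : Fin n) : Finset (Fin n) :=
  cut (XS A c d) (YS A c d) (Nat.sqrt (Mc A c d))

theorem Mc_eq (A : BMat n) (c d : Fin n) :
    Mc A c d = ∑ x, ∑ y, if Cq A x y c d then 1 else 0 := by
  unfold Mc inv
  rw [Finset.card_filter, Fintype.sum_prod_type]
  apply Finset.sum_congr rfl
  intro x _
  apply Finset.sum_congr rfl
  intro y _
  apply if_congr _ rfl rfl
  unfold XS YS Cq
  tauto

theorem cutC_card (A : BMat n) (c d : Fin n) : (cutC A c d).card ≤ 2 * Nat.sqrt (Mc A c d) :=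
  cut_card (XS A c d) (YS A c d)

theorem cutC_hits {A : BMat n} {x y c d : Fin n} (h : Cq A x y c d) :
    x ∈ cutC A c d ∨ y ∈ cutC A c d :=
  cut_hits (XS A c d) (YS A c d) _ x y h.1 ⟨h.2.1, h.2.2.1, h.2.2.2.1⟩ ⟨h.2.2.2.2.1, h.2.2.2.2.2⟩

/-- Rows filled with ones in the first cleaning step. -/
def R1 (A : BMat n) (f : Fin r2 → Fin n) : Finset (Fin n) :=
  univ.biUnion (fun q : Fin r2 × Fin r2 => cutC A (f q.1) (f q.2))

/-- The matrix after the first cleaning step. -/
def A1 (A : BMat n) (f : Fin r2 → Fin n) : BMat n :=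
  fun x c => decide (x ∈ R1 A f) || A x c

theorem A1_false {A : BMat n} {f : Fin r2 → Fin n} {x c : Fin n} (h : A1 A f x c = false) :
    x ∉ R1 A f ∧ A x c = false := by
  unfold A1 at h
  rw [Bool.or_eq_false_iff] at h
  exact ⟨by simpa using h.1, h.2⟩

theorem A1_of_not_mem {A : BMat n} {f : Fin r2 → Fin n} {x : Fin n} (h : x ∉ R1 A f)
    (c : Fin n) : A1 A f x c = A x c := by
  unfold A1
  simp [h]

theorem A1_free (A : BMat n) (f : Fin r2 → Fin n) (l l' : Fin r2) (x y : Fin n) :
    ¬ Cq (A1 A f) x y (f l) (f l') := by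
  rintro ⟨hxy, hcd, h1, h2, h3, h4⟩
  have hx := A1_false h2
  have hy := A1_false h3
  have hy' := A1_false h4
  rw [A1_of_not_mem hx.1] at h1
  have hc : Cq A x y (f l) (f l') := ⟨hxy, hcd, h1, hx.2, hy.2, hy'.2⟩
  have hsub : cutC A (f l) (f l') ⊆ R1 A f := by
    unfold R1
    exact Finset.subset_biUnion_of_mem (fun q : Fin r2 × Fin r2 => cutC A (f q.1) (f q.2))
      (mem_univ (l, l'))
  rcases cutC_hits hc with h | h
  · exact hx.1 (hsub h)
  · exact hy.1 (hsub h)

theorem R1_card (A : BMat n) (f : Fin r2 → Fin n) :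
    (R1 A f).card ≤ ∑ l, ∑ l', 2 * Nat.sqrt (Mc A (f l) (f l')) := by
  unfold R1
  calc _ ≤ ∑ q : Fin r2 × Fin r2, (cutC A (f q.1) (f q.2)).card := Finset.card_biUnion_le
    _ ≤ ∑ q : Fin r2 × Fin r2, 2 * Nat.sqrt (Mc A (f q.1) (f q.2)) :=
        Finset.sum_le_sum (fun q _ => cutC_card A _ _)
    _ = _ := by rw [Fintype.sum_prod_type]

/-- Row `x` is truncated because of the columns `u < u'`: it is zero in both and lies strictly
below every anchor row that is zero in both. -/
def Trunc (S : BMat n) (h : Fin m → Fin n) (u u' x : Fin n) : Prop :=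
  u < u' ∧ S x u = false ∧ S x u' = false ∧
    ∀ k, S (h k) u = false → S (h k) u' = false → h k < x

instance (S : BMat n) (h : Fin m → Fin n) (u u' x : Fin n) : Decidable (Trunc S h u u' x) := by
  unfold Trunc; infer_instance

/-- Row `x` is truncated at or before column `d`. -/
def TrAt (S : BMat n) (f : Fin r2 → Fin n) (h : Fin m → Fin n) (x d : Fin n) : Prop :=
  ∃ l l', f l' ≤ d ∧ Trunc S h (f l) (f l') x

instance (S : BMat n) (f : Fin r2 → Fin n) (h : Fin m → Fin n) (x d : Fin n) :
    Decidable (TrAt S f h x d) := by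
  unfold TrAt; infer_instance

/-- The matrix after the second cleaning step. -/
def A2 (A : BMat n) (f : Fin r2 → Fin n) (h : Fin m → Fin n) : BMat n :=
  fun x d => decide (TrAt (A1 A f) f h x d) || A1 A f x d

/-- Rows truncated in the second cleaning step. -/
def R2 (A : BMat n) (f : Fin r2 → Fin n) (h : Fin m → Fin n) : Finset (Fin n) :=
  univ.filter (fun x => ∃ l l', Trunc (A1 A f) h (f l) (f l') x)

theorem anc_not_trunc (S : BMat n) (h : Fin m → Fin n) (u u' : Fin n) (k : Fin m) :
    ¬ Trunc S h u u' (h k) := by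
  rintro ⟨-, h1, h2, h3⟩
  exact lt_irrefl _ (h3 k h1 h2)

theorem A2_anc (A : BMat n) (f : Fin r2 → Fin n) (h : Fin m → Fin n) (k : Fin m) (d : Fin n) :
    A2 A f h (h k) d = A1 A f (h k) d := by
  have hT : ¬ TrAt (A1 A f) f h (h k) d := by
    rintro ⟨l, l', -, ht⟩
    exact anc_not_trunc _ _ _ _ _ ht
  unfold A2
  simp [hT]

theorem A2_false {A : BMat n} {f : Fin r2 → Fin n} {h : Fin m → Fin n} {x d : Fin n}
    (hh : A2 A f h x d = false) : ¬ TrAt (A1 A f) f h x d ∧ A1 A f x d = false := by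
  unfold A2 at hh
  rw [Bool.or_eq_false_iff] at hh
  exact ⟨by simpa using hh.1, hh.2⟩

theorem A2_le {A : BMat n} {f : Fin r2 → Fin n} {h : Fin m → Fin n} {x c d : Fin n}
    (hh : A2 A f h x d = false) (hcd : c ≤ d) : A2 A f h x c = A1 A f x c := by
  have h1 := (A2_false hh).1
  have hT : ¬ TrAt (A1 A f) f h x c := by
    rintro ⟨l, l', hle, ht⟩
    exact h1 ⟨l, l', le_trans hle hcd, ht⟩
  unfold A2
  simp [hT]

theorem A2_of_not_mem {A : BMat n} {f : Fin r2 → Fin n} {h : Fin m → Fin n} {x : Fin n}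
    (h1 : x ∉ R1 A f) (h2 : x ∉ R2 A f h) (d : Fin n) : A2 A f h x d = A x d := by
  have hT : ¬ TrAt (A1 A f) f h x d := by
    rintro ⟨l, l', -, ht⟩
    apply h2
    unfold R2
    rw [mem_filter]
    exact ⟨mem_univ _, l, l', ht⟩
  unfold A2
  simp [hT, A1_of_not_mem h1]

theorem A2_free (A : BMat n) (f : Fin r2 → Fin n) (h : Fin m → Fin n) (l l' : Fin r2)
    (x y : Fin n) : ¬ Cq (A2 A f h) x y (f l) (f l') := by
  rintro ⟨hxy, hcd, h1, h2, h3, h4⟩
  apply A1_free A f l l' x y
  refine ⟨hxy, hcd, ?_, (A2_false h2).2, (A2_false h3).2, (A2_false h4).2⟩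
  rw [← A2_le h2 hcd.le]
  exact h1

theorem A2_low (A : BMat n) (f : Fin r2 → Fin n) (h : Fin m → Fin n) (l l' : Fin r2)
    (x : Fin n) (hlt : f l < f l') (h1 : A2 A f h x (f l) = false)
    (h2 : A2 A f h x (f l') = false) :
    ∃ b, (∃ k, h k = b) ∧ x ≤ b ∧ A2 A f h b (f l) = false ∧ A2 A f h b (f l') = false := by
  have hn := (A2_false h2).1
  by_contra hcon
  apply hn
  refine ⟨l, l', le_refl _, hlt, (A2_false h1).2, (A2_false h2).2, ?_⟩
  intro k hk1 hk2
  by_contra hle
  exact hcon ⟨h k, ⟨k, rfl⟩, not_lt.mp hle, by rw [A2_anc]; exact hk1, by rw [A2_anc]; exact hk2⟩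

/-- An anchor row with a zero somewhere in the cleaned matrix is an untouched row of `A`. -/
theorem A2_anc_eq (A : BMat n) (f : Fin r2 → Fin n) (h : Fin m → Fin n) (k : Fin m) (d : Fin n)
    (hh : A2 A f h (h k) d = false) (e : Fin n) : A2 A f h (h k) e = A (h k) e := by
  rw [A2_anc] at hh ⊢
  exact A1_of_not_mem (A1_false hh).1 e

/-- Expected number of truncated rows. -/
theorem R2_sum (A : BMat n) (f : Fin r2 → Fin n) :
    (m + 1) * ∑ h : Fin m → Fin n, (R2 A f h).card ≤ r2 * (r2 * n ^ (m + 1)) := by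
  have h1 : ∀ l l' : Fin r2, (m + 1) * ∑ h : Fin m → Fin n,
      (univ.filter (fun x => Trunc (A1 A f) h (f l) (f l') x)).card ≤ n ^ (m + 1) := by
    intro l l'
    have hex := exch_max m (fun a : Fin n => A1 A f a (f l) = false ∧ A1 A f a (f l') = false)
      (fun a b : Fin n => b < a) (fun a b hab hba => lt_asymm hab hba)
    rw [Fintype.card_fin] at hex
    refine le_trans (Nat.mul_le_mul_left _
      (Finset.sum_le_sum (fun h _ => Finset.card_le_card ?_))) hex
    intro x hx
    rw [mem_filter] at hx ⊢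
    obtain ⟨-, -, hx1, hx2, hx3⟩ := hx
    exact ⟨mem_univ _, ⟨hx1, hx2⟩, fun k hk => hx3 k hk.1 hk.2⟩
  have h2 : ∀ h : Fin m → Fin n, (R2 A f h).card ≤
      ∑ l, ∑ l', (univ.filter (fun x => Trunc (A1 A f) h (f l) (f l') x)).card := by
    intro h
    have hsub : R2 A f h ⊆ (univ : Finset (Fin r2 × Fin r2)).biUnion
        (fun q => univ.filter (fun x => Trunc (A1 A f) h (f q.1) (f q.2) x)) := by
      intro x hx
      unfold R2 at hx
      rw [mem_filter] at hx
      obtain ⟨-, l, l', ht⟩ := hx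
      rw [Finset.mem_biUnion]
      exact ⟨(l, l'), mem_univ _, by rw [mem_filter]; exact ⟨mem_univ _, ht⟩⟩
    calc _ ≤ _ := Finset.card_le_card hsub
      _ ≤ ∑ q : Fin r2 × Fin r2,
          (univ.filter (fun x => Trunc (A1 A f) h (f q.1) (f q.2) x)).card :=
        Finset.card_biUnion_le
      _ = _ := by rw [Fintype.sum_prod_type]
  calc (m + 1) * ∑ h : Fin m → Fin n, (R2 A f h).card
      ≤ (m + 1) * ∑ h : Fin m → Fin n, ∑ l, ∑ l',
          (univ.filter (fun x => Trunc (A1 A f) h (f l) (f l') x)).card :=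
        Nat.mul_le_mul_left _ (Finset.sum_le_sum (fun h _ => h2 h))
    _ = ∑ l : Fin r2, ∑ l' : Fin r2, (m + 1) * ∑ h : Fin m → Fin n,
          (univ.filter (fun x => Trunc (A1 A f) h (f l) (f l') x)).card := by
        rw [Finset.sum_comm, Finset.mul_sum]
        apply Finset.sum_congr rfl
        intro l _
        rw [Finset.sum_comm, Finset.mul_sum]
    _ ≤ ∑ l : Fin r2, ∑ l' : Fin r2, n ^ (m + 1) :=
        Finset.sum_le_sum (fun l _ => Finset.sum_le_sum (fun l' _ => h1 l l'))
    _ = r2 * (r2 * n ^ (m + 1)) := by simp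

end Vale.Agent.Lib.P037.helper17.Corner
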