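import Mathlib
import Vale.Agent.Lib.P037.Defs
import Vale.Agent.Lib.P037.helper17.Corner.Basic

/-!
Links between rows through sampled columns, chains of links, and the rounded matrix whose
zero set in column `c` is the set of rows chained to the lowest pivot zero of the column.
For a skeleton `S` without copies inside the sampled columns the rounded matrix has no copy
at all, and every row chained to an anchor is linked directly to an anchor on the chain.
-/

namespace Vale.Agent.Lib.P037.helper17.Corner

open Finset Vale.Agent.Lib.P037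

variable {n r1 r2 : ℕ}

/-- Rows `x < y` are linked at position `c`: they have a common zero in a sampled column at
or after `c`. -/
def Lk (S : BMat n) (f : Fin r2 → Fin n) (c x y : Fin n) : Prop :=
  x < y ∧ ∃ l, c ≤ f l ∧ S x (f l) = false ∧ S y (f l) = false

/-- Chains of links at position `c`. -/
def Rch (S : BMat n) (f : Fin r2 → Fin n) (c : Fin n) : Fin n → Fin n → Prop :=
  Relation.ReflTransGen (Lk S f c)

theorem Lk_mono {S : BMat n} {f : Fin r2 → Fin n} {c d x y : Fin n} (hcd : c ≤ d)
    (h : Lk S f d x y) : Lk S f c x y := by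
  obtain ⟨hxy, l, hl, h1, h2⟩ := h
  exact ⟨hxy, l, le_trans hcd hl, h1, h2⟩

theorem Rch_mono {S : BMat n} {f : Fin r2 → Fin n} {c d x y : Fin n} (hcd : c ≤ d)
    (h : Rch S f d x y) : Rch S f c x y := by
  induction h with
  | refl => exact Relation.ReflTransGen.refl
  | tail _ hbc ih => exact Relation.ReflTransGen.tail ih (Lk_mono hcd hbc)

theorem Rch_le {S : BMat n} {f : Fin r2 → Fin n} {c x y : Fin n} (h : Rch S f c x y) :
    x ≤ y := by
  induction h with
  | refl => exact le_refl _
  | tail _ hbc ih => exact le_trans ih hbc.1.le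

/-- Two rows linked to a common lower row are linked to each other. -/
theorem Lk_tri {S : BMat n} {f : Fin r2 → Fin n}
    (hfree : ∀ l l' x y, ¬ Cq S x y (f l) (f l')) {c x y w : Fin n}
    (hxw : Lk S f c x w) (hyw : Lk S f c y w) (hxy : x < y) : Lk S f c x y := by
  obtain ⟨hxw', l, hl, hx, hw⟩ := hxw
  obtain ⟨hyw', l', hl', hy, hw'⟩ := hyw
  rcases lt_trichotomy (f l) (f l') with hlt | heq | hgt
  · refine ⟨hxy, l, hl, hx, ?_⟩
    by_contra hne
    have hy1 : S y (f l) = true := by simpa using hne
    exact hfree l l' y w ⟨hyw', hlt, hy1, hy, hw, hw'⟩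
  · refine ⟨hxy, l, hl, hx, ?_⟩
    rw [heq]
    exact hy
  · refine ⟨hxy, l', hl', ?_, hy⟩
    by_contra hne
    have hx1 : S x (f l') = true := by simpa using hne
    exact hfree l' l x w ⟨hxw', hgt, hx1, hx, hw', hw⟩

/-- Two rows chained to a common row are chained to each other. -/
theorem Rch_comp {S : BMat n} {f : Fin r2 → Fin n}
    (hfree : ∀ l l' x y, ¬ Cq S x y (f l) (f l')) (c : Fin n) :
    ∀ (k : ℕ) (v x y : Fin n), v.val ≤ k → Rch S f c x v → Rch S f c y v → x < y →
      Rch S f c x y := by
  intro k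
  induction k with
  | zero =>
    intro v x y hv hx hy hxy
    exfalso
    have h1 : y.val ≤ v.val := Rch_le hy
    have h2 : x.val < y.val := hxy
    omega
  | succ k ih =>
    intro v x y hv hx hy hxy
    rcases Relation.ReflTransGen.cases_tail hy with hyv | ⟨y', hyy', hy'v⟩
    · rw [hyv] at hx
      exact hx
    · rcases Relation.ReflTransGen.cases_tail hx with hxv | ⟨x', hxx', hx'v⟩
      · exfalso
        have h1 : y.val ≤ v.val := Rch_le hy
        have h2 : x.val < y.val := hxy
        have h3 : v.val = x.val := by rw [hxv]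
        omega
      · have hx'k : x'.val ≤ k := by
          have h1 : x'.val < v.val := hx'v.1
          omega
        have hy'k : y'.val ≤ k := by
          have h1 : y'.val < v.val := hy'v.1
          omega
        rcases lt_trichotomy x' y' with hlt | heq | hgt
        · have hl := Lk_tri hfree hx'v hy'v hlt
          exact ih y' x y hy'k (Relation.ReflTransGen.tail hxx' hl) hyy' hxy
        · subst heq
          exact ih x' x y hx'k hxx' hyy' hxy
        · have hl := Lk_tri hfree hy'v hx'v hgt
          exact ih x' x y hx'k hxx' (Relation.ReflTransGen.tail hyy' hl) hxy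

/-- `v` is the lowest pivot row having a zero in column `c`. -/
def IsP0 (S : BMat n) (p : Fin r1 → Fin n) (c v : Fin n) : Prop :=
  (∃ k, p k = v) ∧ S v c = false ∧ ∀ k, S (p k) c = false → p k ≤ v

open Classical in
/-- The rounded matrix: its zeros in column `c` are the rows chained (at position `c`) to the
lowest pivot zero of column `c`. -/
noncomputable def Bc (S : BMat n) (f : Fin r2 → Fin n) (p : Fin r1 → Fin n) : BMat n :=
  fun i c => decide (¬ ∃ v, IsP0 S p c v ∧ Rch S f c i v)

theorem Bc_false_iff {S : BMat n} {f : Fin r2 → Fin n} {p : Fin r1 → Fin n} {i c : Fin n} :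
    Bc S f p i c = false ↔ ∃ v, IsP0 S p c v ∧ Rch S f c i v := by
  unfold Bc
  simp

theorem Bc_true_iff {S : BMat n} {f : Fin r2 → Fin n} {p : Fin r1 → Fin n} {i c : Fin n} :
    Bc S f p i c = true ↔ ¬ ∃ v, IsP0 S p c v ∧ Rch S f c i v := by
  unfold Bc
  simp

theorem IsP0_unique {S : BMat n} {p : Fin r1 → Fin n} {c v v' : Fin n}
    (h1 : IsP0 S p c v) (h2 : IsP0 S p c v') : v = v' := by
  obtain ⟨⟨k, rfl⟩, hz, hmax⟩ := h1
  obtain ⟨⟨k', rfl⟩, hz', hmax'⟩ := h2
  exact le_antisymm (hmax' k hz) (hmax k' hz')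

theorem IsP0_exists {S : BMat n} {p : Fin r1 → Fin n} {c : Fin n} (k : Fin r1)
    (hk : S (p k) c = false) : ∃ v, IsP0 S p c v := by
  classical
  set T := (univ.filter (fun k : Fin r1 => S (p k) c = false)).image p with hT
  have hne : T.Nonempty :=
    ⟨p k, by rw [hT, mem_image]; exact ⟨k, by rw [mem_filter]; exact ⟨mem_univ _, hk⟩, rfl⟩⟩
  have hmem := Finset.max'_mem T hne
  have hmax : ∀ y, y ∈ T → y ≤ T.max' hne := fun y hy => Finset.le_max' T y hy
  generalize T.max' hne = w at hmem hmax
  rw [hT, mem_image] at hmem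
  obtain ⟨k', hk'1, hk'⟩ := hmem
  rw [mem_filter] at hk'1
  refine ⟨w, ⟨k', hk'⟩, ?_, ?_⟩
  · rw [← hk']
    exact hk'1.2
  · intro k'' hk''
    apply hmax
    rw [hT, mem_image]
    exact ⟨k'', by rw [mem_filter]; exact ⟨mem_univ _, hk''⟩, rfl⟩

/-- The rounded matrix contains no copy. -/
theorem Bc_free {S : BMat n} {f : Fin r2 → Fin n}
    (hfree : ∀ l l' x y, ¬ Cq S x y (f l) (f l')) (p : Fin r1 → Fin n) (i j c d : Fin n) :
    ¬ Cq (Bc S f p) i j c d := by
  rintro ⟨hij, hcd, h1, h2, h3, h4⟩
  rw [Bc_false_iff] at h2 h3 h4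
  rw [Bc_true_iff] at h1
  obtain ⟨vd, hvd, hi⟩ := h2
  obtain ⟨vc, hvc, hj⟩ := h3
  obtain ⟨vd', hvd', hj'⟩ := h4
  have hvv := IsP0_unique hvd hvd'
  subst hvv
  have hij' : Rch S f d i j := Rch_comp hfree d vd.val vd i j le_rfl hi hj' hij
  exact h1 ⟨vc, hvc, Relation.ReflTransGen.trans (Rch_mono hcd.le hij') hj⟩

/-- A row chained to an anchor `v` is linked directly to an anchor on the chain. -/
theorem anchor_link {S : BMat n} {f : Fin r2 → Fin n}
    (hfree : ∀ l l' x y, ¬ Cq S x y (f l) (f l')) (anc : Fin n → Prop)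
    (hlow : ∀ l l' x, f l < f l' → S x (f l) = false → S x (f l') = false →
      ∃ b, anc b ∧ x ≤ b ∧ S b (f l) = false ∧ S b (f l') = false)
    {c x v : Fin n} (hv : anc v) (hx : Rch S f c x v) (hne : x ≠ v) :
    ∃ b, anc b ∧ Lk S f c x b ∧ Rch S f c b v := by
  classical
  set P := univ.filter (fun y => Lk S f c x y ∧ Rch S f c y v) with hP
  have hPne : P.Nonempty := by
    rcases Relation.ReflTransGen.cases_head hx with h | ⟨x1, h1, h2⟩
    · exact absurd h hne
    · exact ⟨x1, by rw [hP, mem_filter]; exact ⟨mem_univ _, h1, h2⟩⟩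
  have hbP : P.max' hPne ∈ P := Finset.max'_mem P hPne
  have hmax : ∀ y, y ∈ P → y ≤ P.max' hPne := fun y hy => Finset.le_max' P y hy
  generalize P.max' hPne = b at hbP hmax
  rw [hP, mem_filter] at hbP
  obtain ⟨-, hxb, hbv⟩ := hbP
  by_cases hbv' : b = v
  · exact ⟨b, by rw [hbv']; exact hv, hxb, hbv⟩
  · rcases Relation.ReflTransGen.cases_head hbv with h | ⟨yp, hbyp, hypv⟩
    · exact absurd h hbv'
    · have hnot : ¬ Lk S f c x yp := by
        intro hl
        have hmem : yp ∈ P := by
          rw [hP, mem_filter]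
          exact ⟨mem_univ _, hl, hypv⟩
        exact absurd hbyp.1 (not_lt.mpr (hmax yp hmem))
      obtain ⟨hxb', l, hl, hxl, hbl⟩ := hxb
      obtain ⟨hbyp', lp, hlp, hblp, hyplp⟩ := hbyp
      have hxyp : x < yp := lt_trans hxb' hbyp'
      have h1 : S yp (f l) = true := by
        by_contra hcon
        have hz : S yp (f l) = false := by simpa using hcon
        exact hnot ⟨hxyp, l, hl, hxl, hz⟩
      have h2 : S x (f lp) = true := by
        by_contra hcon
        have hz : S x (f lp) = false := by simpa using hcon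
        exact hnot ⟨hxyp, lp, hlp, hz, hyplp⟩
      have hlt : f l < f lp := by
        rcases lt_trichotomy (f l) (f lp) with h | h | h
        · exact h
        · rw [h, h2] at hxl
          exact Bool.noConfusion hxl
        · exact absurd ⟨hxb', h, h2, hxl, hblp, hbl⟩ (hfree lp l x b)
      obtain ⟨b', hb'a, hbb', hb'l, hb'lp⟩ := hlow l lp b hlt hbl hblp
      rcases eq_or_lt_of_le hbb' with heq | hlt'
      · exact ⟨b, by rw [heq]; exact hb'a, ⟨hxb', l, hl, hxl, hbl⟩, hbv⟩
      · exfalso
        have hxb'' : Lk S f c x b' := ⟨lt_trans hxb' hlt', l, hl, hxl, hb'l⟩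
        rcases lt_trichotomy b' yp with h | h | h
        · have hmem : b' ∈ P := by
            rw [hP, mem_filter]
            exact ⟨mem_univ _, hxb'',
              Relation.ReflTransGen.head ⟨h, lp, hlp, hb'lp, hyplp⟩ hypv⟩
          exact absurd hlt' (not_lt.mpr (hmax b' hmem))
        · rw [h, h1] at hb'l
          exact Bool.noConfusion hb'l
        · exact hfree l lp yp b' ⟨h, hlt, h1, hyplp, hb'l, hb'lp⟩

end Vale.Agent.Lib.P037.helper17.Corner
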