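import Mathlib
import Vale.Agent.Lib.P037.Defs
import Vale.Agent.Lib.P037.helper17.Avg
import Vale.Agent.Lib.P037.helper17.Corner.Link

/-!
The final matrix attached to a sample of columns and a sample of anchor rows (the first `r1`
anchors are the pivots), and the classification of the entries in which it differs from `A`.
-/

namespace Vale.Agent.Lib.P037.helper17.Corner

open Finset Vale.Agent.Lib.P037

variable {n r1 r2 r3 m : ℕ}

/-- The pivot rows: the first `r1` anchors. -/
def piv (h : Fin (r1 + r3) → Fin n) : Fin r1 → Fin n := fun k => h (Fin.castAdd r3 k)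

/-- The final matrix attached to the samples. -/
noncomputable def Bf (A : BMat n) (f : Fin r2 → Fin n) (h : Fin (r1 + r3) → Fin n) : BMat n :=
  Bc (A2 A f h) f (piv h)

theorem Bf_free (A : BMat n) (f : Fin r2 → Fin n) (h : Fin (r1 + r3) → Fin n)
    (i j c d : Fin n) : ¬ Cq (Bf A f h) i j c d :=
  Bc_free (A2_free A f h) (piv h) i j c d

/-- A zero of `S` at `(x, c)` strictly below every pivot zero of the column `c`. -/
def UnwL (S : BMat n) (p : Fin r1 → Fin n) (x c : Fin n) : Prop :=
  S x c = false ∧ ∀ k, S (p k) c = false → p k < x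

instance (S : BMat n) (p : Fin r1 → Fin n) (x c : Fin n) : Decidable (UnwL S p x c) := by
  unfold UnwL; infer_instance

/-- Rows `z`, `y` are zero at `c` and have no common zero in a sampled column at or
after `c`. -/
def TailL (A : BMat n) (f : Fin r2 → Fin n) (z y c : Fin n) : Prop :=
  A z c = false ∧ A y c = false ∧ ∀ l, A z (f l) = false → A y (f l) = false → f l < c

instance (A : BMat n) (f : Fin r2 → Fin n) (z y c : Fin n) : Decidable (TailL A f z y c) := by
  unfold TailL; infer_instance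

/-- Walking along the anchors of a chain: an anchor with a one at `c` chained to an anchor
with a zero at `c` yields a copy of `A` on two anchor rows, the column `c` and a sampled
column. -/
theorem anchor_walk (A : BMat n) (f : Fin r2 → Fin n) (h : Fin m → Fin n) (c v : Fin n)
    (hv : ∃ k, h k = v) (hvc : A2 A f h v c = false) :
    ∀ (j : ℕ) (b : Fin n), v.val ≤ b.val + j → (∃ k, h k = b) → Rch (A2 A f h) f c b v →
      A2 A f h b c = true → (∃ d, A2 A f h b d = false) →
      ∃ k k' l, Cq A (h k) (h k') c (f l) := by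
  intro j
  induction j with
  | zero =>
    intro b hb _ hR hbc _
    exfalso
    have h1 : b.val ≤ v.val := Rch_le hR
    have hbv : b = v := Fin.ext (by omega)
    rw [hbv, hvc] at hbc
    exact Bool.noConfusion hbc
  | succ j ih =>
    intro b hb hbanc hR hbc hbz
    have hne : b ≠ v := by
      intro he
      rw [he, hvc] at hbc
      exact Bool.noConfusion hbc
    obtain ⟨b', hb'anc, hL, hR'⟩ := anchor_link (A2_free A f h) (fun b => ∃ k, h k = b)
      (A2_low A f h) hv hR hne
    obtain ⟨hbb', l, hl, hbl, hb'l⟩ := hL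
    obtain ⟨k, rfl⟩ := hbanc
    obtain ⟨k', rfl⟩ := hb'anc
    obtain ⟨d, hd⟩ := hbz
    have eb := A2_anc_eq A f h k d hd
    have eb' := A2_anc_eq A f h k' (f l) hb'l
    by_cases hb'c : A2 A f h (h k') c = false
    · refine ⟨k, k', l, hbb', ?_, ?_, ?_, ?_, ?_⟩
      · rcases lt_or_eq_of_le hl with h1 | h1
        · exact h1
        · rw [← h1, hbc] at hbl
          exact Bool.noConfusion hbl
      · rw [← eb]
        exact hbc
      · rw [← eb]
        exact hbl
      · rw [← eb']
        exact hb'c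
      · rw [← eb']
        exact hb'l
    · have hb'c' : A2 A f h (h k') c = true := by simpa using hb'c
      have hlt : (h k).val < (h k').val := hbb'
      exact ih (h k') (by omega) ⟨k', rfl⟩ hR' hb'c' ⟨f l, hb'l⟩

/-- Classification of the entries where the final matrix differs from `A`. -/
theorem err_cases (A : BMat n) (f : Fin r2 → Fin n) (h : Fin (r1 + r3) → Fin n) (x c : Fin n)
    (hne : A x c ≠ Bf A f h x c) :
    x ∈ R1 A f ∨ x ∈ R2 A f h ∨ UnwL (A1 A f) (piv h) x c
      ∨ (∃ k : Fin r1, TailL A f x (piv h k) c)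
      ∨ (∃ k l, Cq A x (h k) c (f l)) ∨ (∃ k k' l, Cq A (h k) (h k') c (f l)) := by
  by_cases hx1 : x ∈ R1 A f
  · exact Or.inl hx1
  by_cases hx2 : x ∈ R2 A f h
  · exact Or.inr (Or.inl hx2)
  have hS : ∀ d, A2 A f h x d = A x d := fun d => A2_of_not_mem hx1 hx2 d
  right; right
  rcases Bool.eq_false_or_eq_true (A x c) with hA | hA
  · -- a one of `A` turned into a zero
    have hB : Bf A f h x c = false := by
      rw [hA] at hne
      cases hb : Bf A f h x c with
      | false => rfl
      | true => exact absurd hb.symm hne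
    right; right
    unfold Bf at hB
    rw [Bc_false_iff] at hB
    obtain ⟨v, hv, hR⟩ := hB
    obtain ⟨⟨k0, rfl⟩, hvc, -⟩ := hv
    have hvanc : ∃ k, h k = piv h k0 := ⟨Fin.castAdd r3 k0, rfl⟩
    have hveq : ∀ e, A2 A f h (piv h k0) e = A (piv h k0) e :=
      fun e => A2_anc_eq A f h (Fin.castAdd r3 k0) c hvc e
    have hxv : x ≠ piv h k0 := by
      intro he
      rw [he, ← hveq, hvc] at hA
      exact Bool.noConfusion hA
    obtain ⟨b, ⟨k, rfl⟩, hL, hR'⟩ := anchor_link (A2_free A f h) (fun b => ∃ k, h k = b)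
      (A2_low A f h) hvanc hR hxv
    obtain ⟨hxb, l, hl, hxl, hbl⟩ := hL
    rw [hS] at hxl
    have hcl : c < f l := by
      rcases lt_or_eq_of_le hl with h1 | h1
      · exact h1
      · rw [← h1, hA] at hxl
        exact Bool.noConfusion hxl
    have eb := A2_anc_eq A f h k (f l) hbl
    by_cases hbc : A2 A f h (h k) c = false
    · left
      exact ⟨k, l, hxb, hcl, hA, hxl, by rw [← eb]; exact hbc, by rw [← eb]; exact hbl⟩
    · right
      have hbc' : A2 A f h (h k) c = true := by simpa using hbc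
      exact anchor_walk A f h c (piv h k0) hvanc hvc (piv h k0).val (h k) (by omega) ⟨k, rfl⟩
        hR' hbc' ⟨f l, hbl⟩
  · -- a zero of `A` turned into a one
    have hB : Bf A f h x c = true := by
      rw [hA] at hne
      cases hb : Bf A f h x c with
      | false => exact absurd hb.symm hne
      | true => rfl
    by_cases hU : UnwL (A1 A f) (piv h) x c
    · exact Or.inl hU
    right; left
    have hA1 : A1 A f x c = false := by
      rw [A1_of_not_mem hx1]
      exact hA
    have hex : ∃ k : Fin r1, A1 A f (piv h k) c = false ∧ x ≤ piv h k := by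
      by_contra hcon
      apply hU
      refine ⟨hA1, fun k hk => ?_⟩
      by_contra hle
      exact hcon ⟨k, hk, not_lt.mp hle⟩
    obtain ⟨k, hk1, hk2⟩ := hex
    have hk3 : A2 A f h (piv h k) c = false := by
      unfold piv
      rw [A2_anc]
      exact hk1
    obtain ⟨v, hv⟩ := IsP0_exists (S := A2 A f h) (p := piv h) k hk3
    have hxv : x ≤ v := le_trans hk2 (hv.2.2 k hk3)
    have hnR : ¬ Rch (A2 A f h) f c x v := by
      intro hR
      unfold Bf at hB
      rw [Bc_true_iff] at hB
      exact hB ⟨v, hv, hR⟩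
    have hxv' : x < v := by
      rcases eq_or_lt_of_le hxv with he | hl
      · exfalso
        apply hnR
        rw [he]
        exact Relation.ReflTransGen.refl
      · exact hl
    obtain ⟨⟨k0, rfl⟩, hvc, -⟩ := hv
    have hveq : ∀ e, A2 A f h (piv h k0) e = A (piv h k0) e :=
      fun e => A2_anc_eq A f h (Fin.castAdd r3 k0) c hvc e
    refine ⟨k0, hA, by rw [← hveq]; exact hvc, ?_⟩
    intro l hl1 hl2
    by_contra hle
    apply hnR
    exact Relation.ReflTransGen.single
      ⟨hxv', l, not_lt.mp hle, by rw [hS]; exact hl1, by rw [hveq]; exact hl2⟩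

theorem one_le_sum_ite {ι : Type*} [Fintype ι] (P : ι → Prop) [DecidablePred P] (k : ι)
    (hk : P k) : 1 ≤ ∑ k, (if P k then 1 else 0 : ℕ) := by
  calc 1 = (if P k then 1 else 0 : ℕ) := by rw [if_pos hk]
    _ ≤ _ := Finset.single_le_sum (f := fun k => (if P k then 1 else 0 : ℕ))
        (fun _ _ => Nat.zero_le _) (mem_univ k)

/-- Pointwise form of the classification. -/
theorem err_point (A : BMat n) (f : Fin r2 → Fin n) (h : Fin (r1 + r3) → Fin n) (x c : Fin n) :
    (if A x c ≠ Bf A f h x c then 1 else 0 : ℕ) ≤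
      (if x ∈ R1 A f then 1 else 0) + (if x ∈ R2 A f h then 1 else 0)
      + (if UnwL (A1 A f) (piv h) x c then 1 else 0)
      + ∑ k : Fin r1, (if TailL A f x (piv h k) c then 1 else 0)
      + ∑ k : Fin (r1 + r3), ∑ l : Fin r2, (if Cq A x (h k) c (f l) then 1 else 0)
      + ∑ k : Fin (r1 + r3), ∑ k' : Fin (r1 + r3), ∑ l : Fin r2,
          (if Cq A (h k) (h k') c (f l) then 1 else 0) := by
  by_cases hne : A x c ≠ Bf A f h x c
  · rw [if_pos hne]
    rcases err_cases A f h x c hne with h1 | h1 | h1 | ⟨k, h1⟩ | ⟨k, l, h1⟩ | ⟨k, k', l, h1⟩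
    · rw [if_pos h1]
      omega
    · rw [if_pos h1]
      omega
    · rw [if_pos h1]
      omega
    · have h2 := one_le_sum_ite (fun k : Fin r1 => TailL A f x (piv h k) c) k h1
      omega
    · have h2 := one_le_sum_ite (fun l : Fin r2 => Cq A x (h k) c (f l)) l h1
      have h3 : ∑ l : Fin r2, (if Cq A x (h k) c (f l) then 1 else 0 : ℕ) ≤
          ∑ k : Fin (r1 + r3), ∑ l : Fin r2, (if Cq A x (h k) c (f l) then 1 else 0 : ℕ) :=
        Finset.single_le_sum
          (f := fun k => ∑ l : Fin r2, (if Cq A x (h k) c (f l) then 1 else 0 : ℕ))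
          (fun _ _ => Nat.zero_le _) (mem_univ k)
      omega
    · have h2 := one_le_sum_ite (fun l : Fin r2 => Cq A (h k) (h k') c (f l)) l h1
      have h3 : ∑ l : Fin r2, (if Cq A (h k) (h k') c (f l) then 1 else 0 : ℕ) ≤
          ∑ k' : Fin (r1 + r3), ∑ l : Fin r2,
            (if Cq A (h k) (h k') c (f l) then 1 else 0 : ℕ) :=
        Finset.single_le_sum
          (f := fun k' => ∑ l : Fin r2, (if Cq A (h k) (h k') c (f l) then 1 else 0 : ℕ))
          (fun _ _ => Nat.zero_le _) (mem_univ k')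
      have h4 : ∑ k' : Fin (r1 + r3), ∑ l : Fin r2,
            (if Cq A (h k) (h k') c (f l) then 1 else 0 : ℕ) ≤
          ∑ k : Fin (r1 + r3), ∑ k' : Fin (r1 + r3), ∑ l : Fin r2,
            (if Cq A (h k) (h k') c (f l) then 1 else 0 : ℕ) :=
        Finset.single_le_sum
          (f := fun k => ∑ k' : Fin (r1 + r3), ∑ l : Fin r2,
            (if Cq A (h k) (h k') c (f l) then 1 else 0 : ℕ))
          (fun _ _ => Nat.zero_le _) (mem_univ k)
      omega
  · rw [if_neg hne]
    exact Nat.zero_le _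

theorem sum_mem_const (R : Finset (Fin n)) :
    ∑ x : Fin n, ∑ _c : Fin n, (if x ∈ R then 1 else 0 : ℕ) = n * R.card := by
  have h1 : ∀ x : Fin n, ∑ _c : Fin n, (if x ∈ R then 1 else 0 : ℕ) =
      n * (if x ∈ R then 1 else 0) := by
    intro x
    simp
  rw [Finset.sum_congr rfl (fun x _ => h1 x), ← Finset.mul_sum]
  congr 1
  simp

/-- The distance between `A` and the final matrix. -/
theorem dist_le (A : BMat n) (f : Fin r2 → Fin n) (h : Fin (r1 + r3) → Fin n) :
    hammingDist A (Bf A f h) ≤ n * (R1 A f).card + n * (R2 A f h).card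
      + ∑ c, ∑ x, (if UnwL (A1 A f) (piv h) x c then 1 else 0)
      + ∑ k : Fin r1, ∑ x, ∑ c, (if TailL A f x (piv h k) c then 1 else 0)
      + ∑ k : Fin (r1 + r3), ∑ l : Fin r2, ∑ x, ∑ c, (if Cq A x (h k) c (f l) then 1 else 0)
      + n * ∑ k : Fin (r1 + r3), ∑ k' : Fin (r1 + r3), ∑ l : Fin r2, ∑ c,
          (if Cq A (h k) (h k') c (f l) then 1 else 0) := by
  have h0 : hammingDist A (Bf A f h) =
      ∑ x, ∑ c, (if A x c ≠ Bf A f h x c then 1 else 0 : ℕ) := by
    unfold hammingDist
    rw [Finset.card_filter, Fintype.sum_prod_type]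
  have h1 : ∑ x, ∑ c, (if A x c ≠ Bf A f h x c then 1 else 0 : ℕ) ≤
      ∑ x, ∑ c, ((if x ∈ R1 A f then 1 else 0) + (if x ∈ R2 A f h then 1 else 0)
      + (if UnwL (A1 A f) (piv h) x c then 1 else 0)
      + ∑ k : Fin r1, (if TailL A f x (piv h k) c then 1 else 0)
      + ∑ k : Fin (r1 + r3), ∑ l : Fin r2, (if Cq A x (h k) c (f l) then 1 else 0)
      + ∑ k : Fin (r1 + r3), ∑ k' : Fin (r1 + r3), ∑ l : Fin r2,
          (if Cq A (h k) (h k') c (f l) then 1 else 0) : ℕ) :=
    Finset.sum_le_sum (fun x _ => Finset.sum_le_sum (fun c _ => err_point A f h x c))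
  have e1 := sum_mem_const (R1 A f)
  have e2 := sum_mem_const (R2 A f h)
  have e3 : ∑ x : Fin n, ∑ c : Fin n, (if UnwL (A1 A f) (piv h) x c then 1 else 0 : ℕ) =
      ∑ c, ∑ x, (if UnwL (A1 A f) (piv h) x c then 1 else 0) := Finset.sum_comm
  have e4 : ∑ x : Fin n, ∑ c : Fin n, ∑ k : Fin r1,
      (if TailL A f x (piv h k) c then 1 else 0 : ℕ) =
      ∑ k : Fin r1, ∑ x, ∑ c, (if TailL A f x (piv h k) c then 1 else 0) := by
    rw [Finset.sum_congr rfl (fun x _ => Finset.sum_comm)]
    exact Finset.sum_comm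
  have e5 : ∑ x : Fin n, ∑ c : Fin n, ∑ k : Fin (r1 + r3), ∑ l : Fin r2,
      (if Cq A x (h k) c (f l) then 1 else 0 : ℕ) =
      ∑ k : Fin (r1 + r3), ∑ l : Fin r2, ∑ x, ∑ c, (if Cq A x (h k) c (f l) then 1 else 0) :=
    sum4_comm (fun (x c : Fin n) (k : Fin (r1 + r3)) (l : Fin r2) =>
      (if Cq A x (h k) c (f l) then 1 else 0 : ℕ))
  have e6 : ∑ _x : Fin n, ∑ c : Fin n, ∑ k : Fin (r1 + r3), ∑ k' : Fin (r1 + r3), ∑ l : Fin r2,
      (if Cq A (h k) (h k') c (f l) then 1 else 0 : ℕ) =
      n * ∑ k : Fin (r1 + r3), ∑ k' : Fin (r1 + r3), ∑ l : Fin r2, ∑ c,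
          (if Cq A (h k) (h k') c (f l) then 1 else 0) := by
    rw [Finset.sum_const, Finset.card_univ, Fintype.card_fin, smul_eq_mul]
    congr 1
    rw [Finset.sum_comm]
    apply Finset.sum_congr rfl
    intro k _
    rw [Finset.sum_comm]
    apply Finset.sum_congr rfl
    intro k' _
    rw [Finset.sum_comm]
  rw [h0]
  refine le_trans h1 (le_of_eq ?_)
  simp only [Finset.sum_add_distrib]
  rw [e1, e2, e3, e4, e5, e6]

end Vale.Agent.Lib.P037.helper17.Corner
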