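import Mathlib
import Vale.Agent.Lib.P037.Defs
import Vale.Agent.Lib.P037.helper17.Avg
import Vale.Agent.Lib.P037.helper17.Corner.Err

/-!
Sums of the error terms over all samples of columns and of anchor rows.
-/

namespace Vale.Agent.Lib.P037.helper17.Corner

open Finset Vale.Agent.Lib.P037

variable {n r1 r2 r3 m : ℕ}

/-- Number of copies of the corner pattern, as an iterated sum. -/
def Nq (A : BMat n) : ℕ := ∑ i, ∑ j, ∑ c, ∑ d, if Cq A i j c d then 1 else 0

/-- Number of copies with bottom row `b` and right column `u`. -/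
def phiG (A : BMat n) (b u : Fin n) : ℕ := ∑ x, ∑ c, if Cq A x b c u then 1 else 0

/-- Number of copies with rows `a`, `b` and right column `u`. -/
def psiB (A : BMat n) (a b u : Fin n) : ℕ := ∑ c, if Cq A a b c u then 1 else 0

theorem sum4_rot {α β γ δ : Type*} [Fintype α] [Fintype β] [Fintype γ] [Fintype δ]
    (F : α → β → γ → δ → ℕ) :
    ∑ d, ∑ a, ∑ b, ∑ c, F a b c d = ∑ a, ∑ b, ∑ c, ∑ d, F a b c d := by
  rw [Finset.sum_comm]
  apply Finset.sum_congr rfl
  intro a _
  rw [Finset.sum_comm]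
  apply Finset.sum_congr rfl
  intro b _
  rw [Finset.sum_comm]

theorem sum_phiG (A : BMat n) : ∑ u, ∑ b, phiG A b u = Nq A := by
  unfold phiG Nq
  rw [sum4_rot (fun (b x c u : Fin n) => if Cq A x b c u then 1 else 0)]
  exact Finset.sum_comm

theorem sum_psiB (A : BMat n) : ∑ u, ∑ a, ∑ b, psiB A a b u = Nq A := by
  unfold psiB Nq
  exact sum4_rot (fun (a b c u : Fin n) => if Cq A a b c u then 1 else 0)

theorem sum_Mc (A : BMat n) : ∑ c, ∑ d, Mc A c d = Nq A := by
  simp only [Mc_eq]
  unfold Nq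
  exact (sum4_comm (fun (i j c d : Fin n) => if Cq A i j c d then 1 else 0)).symm

theorem psiB_self (A : BMat n) (a u : Fin n) : psiB A a a u = 0 := by
  unfold psiB
  apply Finset.sum_eq_zero
  intro c _
  rw [if_neg]
  intro h
  exact lt_irrefl _ h.1

theorem Mc_self (A : BMat n) (c : Fin n) : Mc A c c = 0 := by
  rw [Mc_eq]
  apply Finset.sum_eq_zero
  intro x _
  apply Finset.sum_eq_zero
  intro y _
  rw [if_neg]
  intro h
  exact lt_irrefl _ h.2.1

/-- Summing a function of the pivots over all anchor samples. -/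
theorem sum_piv (F : (Fin r1 → Fin n) → ℕ) :
    ∑ h : Fin (r1 + r3) → Fin n, F (piv h) = n ^ r3 * ∑ p : Fin r1 → Fin n, F p := by
  have e := (Fin.appendEquiv (α := Fin n) r1 r3).sum_comp (fun h => F (piv h))
  rw [← e, Fintype.sum_prod_type]
  have hp : ∀ (p : Fin r1 → Fin n) (g : Fin r3 → Fin n),
      piv (Fin.appendEquiv r1 r3 (p, g)) = p := by
    intro p g
    funext k
    unfold piv
    simp
  simp only [hp]
  rw [Finset.mul_sum]
  apply Finset.sum_congr rfl
  intro p _
  simp

/-- Zeros below all pivot zeros of their column. -/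
theorem sum_UnwL (S : BMat n) :
    (r1 + 1) * ∑ h : Fin (r1 + r3) → Fin n, ∑ c, ∑ x, (if UnwL S (piv h) x c then 1 else 0)
      ≤ n ^ r3 * (n * n ^ (r1 + 1)) := by
  rw [sum_piv (fun p : Fin r1 → Fin n => ∑ c, ∑ x, (if UnwL S p x c then 1 else 0))]
  have h1 : ∀ c : Fin n, (r1 + 1) * ∑ p : Fin r1 → Fin n,
      ∑ x, (if UnwL S p x c then 1 else 0) ≤ n ^ (r1 + 1) := by
    intro c
    have hex := exch_max r1 (fun a : Fin n => S a c = false) (fun a b : Fin n => b < a)
      (fun a b hab hba => lt_asymm hab hba)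
    rw [Fintype.card_fin] at hex
    refine le_trans (le_of_eq ?_) hex
    congr 1
    apply Finset.sum_congr rfl
    intro p _
    rw [Finset.card_filter]
    apply Finset.sum_congr rfl
    intro x _
    exact if_congr Iff.rfl rfl rfl
  calc (r1 + 1) * (n ^ r3 * ∑ p : Fin r1 → Fin n, ∑ c, ∑ x, (if UnwL S p x c then 1 else 0))
      = n ^ r3 * ∑ c : Fin n, (r1 + 1) * ∑ p : Fin r1 → Fin n,
          ∑ x, (if UnwL S p x c then 1 else 0) := by
        rw [Finset.sum_comm, ← Finset.mul_sum]
        ring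
    _ ≤ n ^ r3 * ∑ _c : Fin n, n ^ (r1 + 1) :=
        Nat.mul_le_mul_left _ (Finset.sum_le_sum (fun c _ => h1 c))
    _ = n ^ r3 * (n * n ^ (r1 + 1)) := by simp

/-- Pairs of zeros of a column without a later sampled common zero. -/
theorem sum_TailL (A : BMat n) (h : Fin (r1 + r3) → Fin n) :
    (r2 + 1) * ∑ f : Fin r2 → Fin n, ∑ k : Fin r1, ∑ x, ∑ c,
      (if TailL A f x (piv h k) c then 1 else 0) ≤ r1 * (n * n ^ (r2 + 1)) := by
  have h1 : ∀ (z y : Fin n), (r2 + 1) * ∑ f : Fin r2 → Fin n,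
      ∑ c, (if TailL A f z y c then 1 else 0) ≤ n ^ (r2 + 1) := by
    intro z y
    have hex := exch_max r2 (fun a : Fin n => A z a = false ∧ A y a = false)
      (fun a b : Fin n => b < a) (fun a b hab hba => lt_asymm hab hba)
    rw [Fintype.card_fin] at hex
    refine le_trans (le_of_eq ?_) hex
    congr 1
    apply Finset.sum_congr rfl
    intro f _
    rw [Finset.card_filter]
    apply Finset.sum_congr rfl
    intro c _
    apply if_congr _ rfl rfl
    unfold TailL
    constructor
    · rintro ⟨a1, a2, a3⟩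
      exact ⟨⟨a1, a2⟩, fun l hl => a3 l hl.1 hl.2⟩
    · rintro ⟨⟨a1, a2⟩, a3⟩
      exact ⟨a1, a2, fun l hl1 hl2 => a3 l ⟨hl1, hl2⟩⟩
  calc (r2 + 1) * ∑ f : Fin r2 → Fin n, ∑ k : Fin r1, ∑ x, ∑ c,
        (if TailL A f x (piv h k) c then 1 else 0)
      = ∑ k : Fin r1, ∑ x : Fin n, (r2 + 1) * ∑ f : Fin r2 → Fin n,
          ∑ c, (if TailL A f x (piv h k) c then 1 else 0) := by
        rw [Finset.sum_comm, Finset.mul_sum]
        apply Finset.sum_congr rfl
        intro k _
        rw [Finset.sum_comm, Finset.mul_sum]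
    _ ≤ ∑ _k : Fin r1, ∑ _x : Fin n, n ^ (r2 + 1) :=
        Finset.sum_le_sum (fun k _ => Finset.sum_le_sum (fun x _ => h1 x (piv h k)))
    _ = r1 * (n * n ^ (r2 + 1)) := by simp

/-- Copies with an anchor as bottom row and a sampled right column. -/
theorem sum_G (A : BMat n) :
    (∑ f : Fin r2 → Fin n, ∑ h : Fin m → Fin n, ∑ k : Fin m, ∑ l : Fin r2,
      phiG A (h k) (f l)) * n ^ 2 = m * (r2 * (n ^ r2 * (n ^ m * Nq A))) := by
  have h1 : ∀ (k : Fin m) (l : Fin r2),
      (∑ f : Fin r2 → Fin n, ∑ h : Fin m → Fin n, phiG A (h k) (f l)) * n ^ 2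
        = n ^ r2 * (n ^ m * Nq A) := by
    intro k l
    have e1 : ∀ u : Fin n, (∑ h : Fin m → Fin n, phiG A (h k) u) * n
        = n ^ m * ∑ b, phiG A b u := by
      intro u
      have := sum_coord m k (fun b => phiG A b u)
      rwa [Fintype.card_fin] at this
    have e2 := sum_coord r2 l (fun u => ∑ b, phiG A b u)
    rw [Fintype.card_fin, sum_phiG] at e2
    calc (∑ f : Fin r2 → Fin n, ∑ h : Fin m → Fin n, phiG A (h k) (f l)) * n ^ 2
        = ∑ f : Fin r2 → Fin n, ((∑ h : Fin m → Fin n, phiG A (h k) (f l)) * n) * n := by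
          rw [Finset.sum_mul]
          apply Finset.sum_congr rfl
          intro f _
          ring
      _ = ∑ f : Fin r2 → Fin n, (n ^ m * ∑ b, phiG A b (f l)) * n := by
          apply Finset.sum_congr rfl
          intro f _
          rw [e1]
      _ = n ^ m * ((∑ f : Fin r2 → Fin n, ∑ b, phiG A b (f l)) * n) := by
          rw [Finset.sum_mul, Finset.mul_sum]
          apply Finset.sum_congr rfl
          intro f _
          ring
      _ = n ^ r2 * (n ^ m * Nq A) := by
          rw [e2]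
          ring
  calc (∑ f : Fin r2 → Fin n, ∑ h : Fin m → Fin n, ∑ k : Fin m, ∑ l : Fin r2,
        phiG A (h k) (f l)) * n ^ 2
      = ∑ k : Fin m, ∑ l : Fin r2,
          (∑ f : Fin r2 → Fin n, ∑ h : Fin m → Fin n, phiG A (h k) (f l)) * n ^ 2 := by
        rw [sum4_comm (fun (f : Fin r2 → Fin n) (h : Fin m → Fin n) (k : Fin m) (l : Fin r2) =>
          phiG A (h k) (f l)), Finset.sum_mul]
        apply Finset.sum_congr rfl
        intro k _
        rw [Finset.sum_mul]
    _ = ∑ _k : Fin m, ∑ _l : Fin r2, n ^ r2 * (n ^ m * Nq A) := by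
        apply Finset.sum_congr rfl
        intro k _
        apply Finset.sum_congr rfl
        intro l _
        exact h1 k l
    _ = m * (r2 * (n ^ r2 * (n ^ m * Nq A))) := by simp

/-- Copies on two anchor rows with a sampled right column. -/
theorem sum_Bd (A : BMat n) :
    (∑ f : Fin r2 → Fin n, ∑ h : Fin m → Fin n, ∑ k : Fin m, ∑ k' : Fin m, ∑ l : Fin r2,
      psiB A (h k) (h k') (f l)) * n ^ 3 ≤ m * (m * (r2 * (n ^ r2 * (n ^ m * Nq A)))) := by
  have h1 : ∀ (k k' : Fin m) (l : Fin r2),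
      (∑ f : Fin r2 → Fin n, ∑ h : Fin m → Fin n, psiB A (h k) (h k') (f l)) * n ^ 3
        ≤ n ^ r2 * (n ^ m * Nq A) := by
    intro k k' l
    by_cases hkk : k = k'
    · subst hkk
      have hz : ∑ f : Fin r2 → Fin n, ∑ h : Fin m → Fin n, psiB A (h k) (h k) (f l) = 0 := by
        apply Finset.sum_eq_zero
        intro f _
        apply Finset.sum_eq_zero
        intro h _
        exact psiB_self A _ _
      rw [hz]
      simp
    · have e1 : ∀ u : Fin n, (∑ h : Fin m → Fin n, psiB A (h k) (h k') u) * n ^ 2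
          = n ^ m * ∑ a, ∑ b, psiB A a b u := by
        intro u
        have := sum_two_coord m k k' hkk (fun a b => psiB A a b u)
        rwa [Fintype.card_fin] at this
      have e2 := sum_coord r2 l (fun u => ∑ a, ∑ b, psiB A a b u)
      rw [Fintype.card_fin, sum_psiB] at e2
      apply le_of_eq
      calc (∑ f : Fin r2 → Fin n, ∑ h : Fin m → Fin n, psiB A (h k) (h k') (f l)) * n ^ 3
          = ∑ f : Fin r2 → Fin n,
              ((∑ h : Fin m → Fin n, psiB A (h k) (h k') (f l)) * n ^ 2) * n := by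
            rw [Finset.sum_mul]
            apply Finset.sum_congr rfl
            intro f _
            ring
        _ = ∑ f : Fin r2 → Fin n, (n ^ m * ∑ a, ∑ b, psiB A a b (f l)) * n := by
            apply Finset.sum_congr rfl
            intro f _
            rw [e1]
        _ = n ^ m * ((∑ f : Fin r2 → Fin n, ∑ a, ∑ b, psiB A a b (f l)) * n) := by
            rw [Finset.sum_mul, Finset.mul_sum]
            apply Finset.sum_congr rfl
            intro f _
            ring
        _ = n ^ r2 * (n ^ m * Nq A) := by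
            rw [e2]
            ring
  calc (∑ f : Fin r2 → Fin n, ∑ h : Fin m → Fin n, ∑ k : Fin m, ∑ k' : Fin m, ∑ l : Fin r2,
        psiB A (h k) (h k') (f l)) * n ^ 3
      = ∑ k : Fin m, ∑ k' : Fin m, ∑ l : Fin r2,
          (∑ f : Fin r2 → Fin n, ∑ h : Fin m → Fin n, psiB A (h k) (h k') (f l)) * n ^ 3 := by
        rw [sum4_comm (fun (f : Fin r2 → Fin n) (h : Fin m → Fin n) (k : Fin m) (k' : Fin m) =>
          ∑ l : Fin r2, psiB A (h k) (h k') (f l)), Finset.sum_mul]
        apply Finset.sum_congr rfl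
        intro k _
        rw [Finset.sum_mul]
        apply Finset.sum_congr rfl
        intro k' _
        rw [Finset.sum_congr rfl (fun f _ => Finset.sum_comm), Finset.sum_comm, Finset.sum_mul]
    _ ≤ ∑ _k : Fin m, ∑ _k' : Fin m, ∑ _l : Fin r2, n ^ r2 * (n ^ m * Nq A) :=
        Finset.sum_le_sum (fun k _ => Finset.sum_le_sum (fun k' _ =>
          Finset.sum_le_sum (fun l _ => h1 k k' l)))
    _ = m * (m * (r2 * (n ^ r2 * (n ^ m * Nq A)))) := by simp

/-- Copies on pairs of sampled columns. -/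
theorem sum_M (A : BMat n) :
    (∑ f : Fin r2 → Fin n, ∑ l, ∑ l', Mc A (f l) (f l')) * n ^ 2
      ≤ r2 * (r2 * (n ^ r2 * Nq A)) := by
  have h1 : ∀ l l' : Fin r2, (∑ f : Fin r2 → Fin n, Mc A (f l) (f l')) * n ^ 2
      ≤ n ^ r2 * Nq A := by
    intro l l'
    by_cases hll : l = l'
    · subst hll
      rw [Finset.sum_eq_zero (fun f _ => Mc_self A (f l))]
      simp
    · have := sum_two_coord r2 l l' hll (Mc A)
      rw [Fintype.card_fin, sum_Mc] at this
      exact le_of_eq this
  calc (∑ f : Fin r2 → Fin n, ∑ l, ∑ l', Mc A (f l) (f l')) * n ^ 2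
      = ∑ l : Fin r2, ∑ l' : Fin r2, (∑ f : Fin r2 → Fin n, Mc A (f l) (f l')) * n ^ 2 := by
        rw [Finset.sum_comm, Finset.sum_mul]
        apply Finset.sum_congr rfl
        intro l _
        rw [Finset.sum_comm, Finset.sum_mul]
    _ ≤ ∑ _l : Fin r2, ∑ _l' : Fin r2, n ^ r2 * Nq A :=
        Finset.sum_le_sum (fun l _ => Finset.sum_le_sum (fun l' _ => h1 l l'))
    _ = r2 * (r2 * (n ^ r2 * Nq A)) := by simp

end Vale.Agent.Lib.P037.helper17.Corner
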