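import Mathlib
import Vale.Agent.Lib.P037.Defs
import Vale.Agent.Lib.P037.helper17.Corner.Sums

/-!
Assembly: the general inequality relating the distance from freeness and the number of
copies of the corner pattern `[[1, 0], [0, 0]]`, for every choice of the sample sizes.
-/

namespace Vale.Agent.Lib.P037.helper17.Corner

open Finset Vale.Agent.Lib.P037

variable {n : ℕ}

/-- The corner pattern `[[1, 0], [0, 0]]`. -/
def patL : Fin 2 → Fin 2 → Bool := fun a b => decide (a = 0 ∧ b = 0)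

theorem copy_iff (A : BMat n) (i j c d : Fin n) : IsCopy patL A i j c d ↔ Cq A i j c d := by
  have e1 : patL 0 0 = true := by decide
  have e2 : patL 0 1 = false := by decide
  have e3 : patL 1 0 = false := by decide
  have e4 : patL 1 1 = false := by decide
  unfold IsCopy Cq
  rw [e1, e2, e3, e4]

theorem Nq_eq (A : BMat n) : Nq A = numCopies patL A := by
  unfold numCopies copySet Nq
  simp only [copy_iff]
  rw [Finset.card_filter, Fintype.sum_prod_type]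
  apply Finset.sum_congr rfl
  intro i _
  rw [Fintype.sum_prod_type]
  apply Finset.sum_congr rfl
  intro j _
  rw [Fintype.sum_prod_type]

theorem Bf_isFree {r1 r2 r3 : ℕ} (A : BMat n) (f : Fin r2 → Fin n)
    (h : Fin (r1 + r3) → Fin n) : IsFree patL (Bf A f h) := by
  intro i j c d hc
  rw [copy_iff] at hc
  exact Bf_free A f h i j c d hc

/-- Total distance over all samples. -/
noncomputable def SD (A : BMat n) (r1 r2 r3 : ℕ) : ℕ :=
  ∑ f : Fin r2 → Fin n, ∑ h : Fin (r1 + r3) → Fin n, hammingDist A (Bf A f h)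

/-- Total number of filled rows. -/
def S1 (A : BMat n) (r2 : ℕ) : ℕ := ∑ f : Fin r2 → Fin n, (R1 A f).card

/-- Total number of truncated rows. -/
def S2 (A : BMat n) (r2 m : ℕ) : ℕ :=
  ∑ f : Fin r2 → Fin n, ∑ h : Fin m → Fin n, (R2 A f h).card

/-- Total number of zeros below all pivot zeros. -/
def SU (A : BMat n) (r1 r2 r3 : ℕ) : ℕ :=
  ∑ f : Fin r2 → Fin n, ∑ h : Fin (r1 + r3) → Fin n, ∑ c, ∑ x,
    (if UnwL (A1 A f) (piv h) x c then 1 else 0)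

/-- Total number of tail triples. -/
def ST (A : BMat n) (r1 r2 r3 : ℕ) : ℕ :=
  ∑ f : Fin r2 → Fin n, ∑ h : Fin (r1 + r3) → Fin n, ∑ k : Fin r1, ∑ x, ∑ c,
    (if TailL A f x (piv h k) c then 1 else 0)

/-- Total number of copies with an anchor bottom row and a sampled right column. -/
def SG (A : BMat n) (r2 m : ℕ) : ℕ :=
  ∑ f : Fin r2 → Fin n, ∑ h : Fin m → Fin n, ∑ k : Fin m, ∑ l : Fin r2, phiG A (h k) (f l)

/-- Total number of copies on two anchor rows with a sampled right column. -/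
def SB (A : BMat n) (r2 m : ℕ) : ℕ :=
  ∑ f : Fin r2 → Fin n, ∑ h : Fin m → Fin n, ∑ k : Fin m, ∑ k' : Fin m, ∑ l : Fin r2,
    psiB A (h k) (h k') (f l)

/-- Total number of copies on pairs of sampled columns. -/
def SM (A : BMat n) (r2 : ℕ) : ℕ := ∑ f : Fin r2 → Fin n, ∑ l, ∑ l', Mc A (f l) (f l')

theorem tot_E (A : BMat n) (r1 r2 r3 : ℕ) :
    SD A r1 r2 r3 ≤ n * (n ^ (r1 + r3) * S1 A r2) + n * S2 A r2 (r1 + r3) + SU A r1 r2 r3
      + ST A r1 r2 r3 + SG A r2 (r1 + r3) + n * SB A r2 (r1 + r3) := by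
  have h1 : ∀ f : Fin r2 → Fin n, ∑ h : Fin (r1 + r3) → Fin n, hammingDist A (Bf A f h) ≤
      n * (n ^ (r1 + r3) * (R1 A f).card) + n * ∑ h : Fin (r1 + r3) → Fin n, (R2 A f h).card
      + ∑ h : Fin (r1 + r3) → Fin n, ∑ c, ∑ x, (if UnwL (A1 A f) (piv h) x c then 1 else 0)
      + ∑ h : Fin (r1 + r3) → Fin n, ∑ k : Fin r1, ∑ x, ∑ c,
          (if TailL A f x (piv h k) c then 1 else 0)
      + ∑ h : Fin (r1 + r3) → Fin n, ∑ k : Fin (r1 + r3), ∑ l : Fin r2, phiG A (h k) (f l)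
      + n * ∑ h : Fin (r1 + r3) → Fin n, ∑ k : Fin (r1 + r3), ∑ k' : Fin (r1 + r3),
          ∑ l : Fin r2, psiB A (h k) (h k') (f l) := by
    intro f
    refine le_trans (Finset.sum_le_sum (fun h _ => dist_le A f h)) (le_of_eq ?_)
    rw [Finset.sum_add_distrib, Finset.sum_add_distrib, Finset.sum_add_distrib,
      Finset.sum_add_distrib, Finset.sum_add_distrib, ← Finset.mul_sum, ← Finset.mul_sum,
      ← Finset.mul_sum]
    simp only [Finset.sum_const, Finset.card_univ, Fintype.card_pi, Finset.prod_const,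
      Fintype.card_fin, smul_eq_mul]
    rfl
  unfold SD S1 S2 SU ST SG SB
  refine le_trans (Finset.sum_le_sum (fun f _ => h1 f)) (le_of_eq ?_)
  rw [Finset.sum_add_distrib, Finset.sum_add_distrib, Finset.sum_add_distrib,
    Finset.sum_add_distrib, Finset.sum_add_distrib, ← Finset.mul_sum, ← Finset.mul_sum,
    ← Finset.mul_sum, ← Finset.mul_sum]

theorem tot_2 (A : BMat n) (r2 m : ℕ) :
    (m + 1) * S2 A r2 m ≤ n ^ r2 * (r2 * (r2 * n ^ (m + 1))) := by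
  unfold S2
  rw [Finset.mul_sum]
  calc ∑ f : Fin r2 → Fin n, (m + 1) * ∑ h : Fin m → Fin n, (R2 A f h).card
      ≤ ∑ _f : Fin r2 → Fin n, r2 * (r2 * n ^ (m + 1)) :=
        Finset.sum_le_sum (fun f _ => R2_sum A f)
    _ = n ^ r2 * (r2 * (r2 * n ^ (m + 1))) := by simp

theorem tot_U (A : BMat n) (r1 r2 r3 : ℕ) :
    (r1 + 1) * SU A r1 r2 r3 ≤ n ^ r2 * (n ^ (r1 + r3) * n ^ 2) := by
  unfold SU
  rw [Finset.mul_sum]
  calc ∑ f : Fin r2 → Fin n, (r1 + 1) * ∑ h : Fin (r1 + r3) → Fin n, ∑ c, ∑ x,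
        (if UnwL (A1 A f) (piv h) x c then 1 else 0)
      ≤ ∑ _f : Fin r2 → Fin n, n ^ r3 * (n * n ^ (r1 + 1)) :=
        Finset.sum_le_sum (fun f _ => sum_UnwL (A1 A f))
    _ = n ^ r2 * (n ^ (r1 + r3) * n ^ 2) := by
        simp only [Finset.sum_const, Finset.card_univ, Fintype.card_pi, Finset.prod_const,
          Fintype.card_fin, smul_eq_mul]
        ring

theorem tot_T (A : BMat n) (r1 r2 r3 : ℕ) :
    (r2 + 1) * ST A r1 r2 r3 ≤ n ^ (r1 + r3) * (r1 * (n * n ^ (r2 + 1))) := by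
  unfold ST
  rw [Finset.sum_comm, Finset.mul_sum]
  calc ∑ h : Fin (r1 + r3) → Fin n, (r2 + 1) * ∑ f : Fin r2 → Fin n, ∑ k : Fin r1, ∑ x, ∑ c,
        (if TailL A f x (piv h k) c then 1 else 0)
      ≤ ∑ _h : Fin (r1 + r3) → Fin n, r1 * (n * n ^ (r2 + 1)) :=
        Finset.sum_le_sum (fun h _ => sum_TailL A h)
    _ = n ^ (r1 + r3) * (r1 * (n * n ^ (r2 + 1))) := by simp

/-- Filled rows against copies on sampled column pairs, with a free real parameter. -/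
theorem tot_R1 (A : BMat n) (r2 : ℕ) (lam : ℝ) (hlam : 0 < lam) :
    lam * (S1 A r2 : ℝ) ≤ (SM A r2 : ℝ) + (n : ℝ) ^ r2 * ((r2 : ℝ) ^ 2 * lam ^ 2) := by
  have hper : ∀ f : Fin r2 → Fin n, lam * ((R1 A f).card : ℝ) ≤
      ((∑ l, ∑ l', Mc A (f l) (f l') : ℕ) : ℝ) + (r2 : ℝ) ^ 2 * lam ^ 2 := by
    intro f
    have h1 : ((R1 A f).card : ℝ) ≤
        ((∑ l, ∑ l', 2 * Nat.sqrt (Mc A (f l) (f l')) : ℕ) : ℝ) := by
      exact_mod_cast R1_card A f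
    have h2 : ∀ l l' : Fin r2, lam * ((2 * Nat.sqrt (Mc A (f l) (f l')) : ℕ) : ℝ) ≤
        ((Mc A (f l) (f l') : ℕ) : ℝ) + lam ^ 2 := by
      intro l l'
      have hs : ((Nat.sqrt (Mc A (f l) (f l')) : ℕ) : ℝ) ^ 2 ≤ ((Mc A (f l) (f l') : ℕ) : ℝ) := by
        have := Nat.sqrt_le' (Mc A (f l) (f l'))
        exact_mod_cast this
      push_cast
      nlinarith [sq_nonneg (((Nat.sqrt (Mc A (f l) (f l')) : ℕ) : ℝ) - lam)]
    calc lam * ((R1 A f).card : ℝ)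
        ≤ lam * ((∑ l, ∑ l', 2 * Nat.sqrt (Mc A (f l) (f l')) : ℕ) : ℝ) :=
          mul_le_mul_of_nonneg_left h1 hlam.le
      _ = ∑ l : Fin r2, ∑ l' : Fin r2, lam * ((2 * Nat.sqrt (Mc A (f l) (f l')) : ℕ) : ℝ) := by
          push_cast
          rw [Finset.mul_sum]
          apply Finset.sum_congr rfl
          intro l _
          rw [Finset.mul_sum]
      _ ≤ ∑ l : Fin r2, ∑ l' : Fin r2, (((Mc A (f l) (f l') : ℕ) : ℝ) + lam ^ 2) :=
          Finset.sum_le_sum (fun l _ => Finset.sum_le_sum (fun l' _ => h2 l l'))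
      _ = ((∑ l, ∑ l', Mc A (f l) (f l') : ℕ) : ℝ) + (r2 : ℝ) ^ 2 * lam ^ 2 := by
          push_cast
          simp only [Finset.sum_add_distrib, Finset.sum_const, Finset.card_univ,
            Fintype.card_fin, nsmul_eq_mul]
          ring
  have hS := Finset.sum_le_sum (fun f (_ : f ∈ (univ : Finset (Fin r2 → Fin n))) => hper f)
  rw [Finset.sum_add_distrib, ← Finset.mul_sum] at hS
  simp only [Finset.sum_const, Finset.card_univ, Fintype.card_pi, Finset.prod_const,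
    Fintype.card_fin, nsmul_eq_mul, Nat.cast_pow] at hS
  unfold S1 SM
  push_cast at hS ⊢
  exact hS

/-- Every sample gives a free matrix, hence a matrix far from `A`. -/
theorem tot_D (A : BMat n) (ε : ℝ)
    (hfar : ∀ B : BMat n, IsFree patL B → ε * (n : ℝ) ^ 2 ≤ (hammingDist A B : ℝ))
    (r1 r2 r3 : ℕ) :
    (n : ℝ) ^ r2 * ((n : ℝ) ^ (r1 + r3) * (ε * (n : ℝ) ^ 2)) ≤ (SD A r1 r2 r3 : ℝ) := by
  have hper : ∀ (f : Fin r2 → Fin n) (h : Fin (r1 + r3) → Fin n),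
      ε * (n : ℝ) ^ 2 ≤ (hammingDist A (Bf A f h) : ℝ) :=
    fun f h => hfar _ (Bf_isFree A f h)
  have hS := Finset.sum_le_sum (fun f (_ : f ∈ (univ : Finset (Fin r2 → Fin n))) =>
    Finset.sum_le_sum (fun h (_ : h ∈ (univ : Finset (Fin (r1 + r3) → Fin n))) => hper f h))
  simp only [Finset.sum_const, Finset.card_univ, Fintype.card_pi, Finset.prod_const,
    Fintype.card_fin, nsmul_eq_mul, Nat.cast_pow] at hS
  unfold SD
  push_cast
  exact hS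

/-- Abstract arithmetic of the assembly. -/
theorem arithG (n a b m lam ε P1 P2 N sD s1 s2 sU sT sG sB sM : ℝ)
    (hn : 0 < n) (ha : 0 ≤ a) (hb : 0 ≤ b) (hm : 0 ≤ m) (hlam : 0 < lam) (hP1 : 0 < P1)
    (hP2 : 0 < P2)
    (hD : P1 * (P2 * (ε * n ^ 2)) ≤ sD)
    (hE : sD ≤ n * (P2 * s1) + n * s2 + sU + sT + sG + n * sB)
    (h1 : lam * s1 ≤ sM + P1 * (b ^ 2 * lam ^ 2))
    (hM : sM * n ^ 2 ≤ b * (b * (P1 * N)))
    (h2 : (m + 1) * s2 ≤ P1 * (b * (b * (P2 * n))))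
    (hU : (a + 1) * sU ≤ P1 * (P2 * n ^ 2))
    (hT : (b + 1) * sT ≤ P2 * (a * (n * (P1 * n))))
    (hG : sG * n ^ 2 = m * (b * (P1 * (P2 * N))))
    (hB : sB * n ^ 3 ≤ m * (m * (b * (P1 * (P2 * N))))) :
    (a + 1) * (b + 1) * (m + 1) * lam * ε * n ^ 4 ≤
        (a + 1) * (b + 1) * (m + 1) * b ^ 2 * n * N
        + (a + 1) * (b + 1) * (m + 1) * b ^ 2 * lam ^ 2 * n ^ 3
        + (a + 1) * (b + 1) * b ^ 2 * lam * n ^ 4
        + (b + 1) * (m + 1) * lam * n ^ 4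
        + (a + 1) * (m + 1) * a * lam * n ^ 4
        + (a + 1) * (b + 1) * (m + 1) * lam * m * b * N
        + (a + 1) * (b + 1) * (m + 1) * lam * m ^ 2 * b * N := by
  have e1 := mul_le_mul_of_nonneg_left hD
    (by positivity : 0 ≤ (a + 1) * (b + 1) * (m + 1) * lam * n ^ 2)
  have e2 := mul_le_mul_of_nonneg_left hE
    (by positivity : 0 ≤ (a + 1) * (b + 1) * (m + 1) * lam * n ^ 2)
  have e3 := mul_le_mul_of_nonneg_left h1
    (by positivity : 0 ≤ (a + 1) * (b + 1) * (m + 1) * n ^ 3 * P2)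
  have e4 := mul_le_mul_of_nonneg_left hM
    (by positivity : 0 ≤ (a + 1) * (b + 1) * (m + 1) * n * P2)
  have e5 := mul_le_mul_of_nonneg_left h2
    (by positivity : 0 ≤ (a + 1) * (b + 1) * lam * n ^ 3)
  have e6 := mul_le_mul_of_nonneg_left hU
    (by positivity : 0 ≤ (b + 1) * (m + 1) * lam * n ^ 2)
  have e7 := mul_le_mul_of_nonneg_left hT
    (by positivity : 0 ≤ (a + 1) * (m + 1) * lam * n ^ 2)
  have e8 : (a + 1) * (b + 1) * (m + 1) * lam * (sG * n ^ 2)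
      = (a + 1) * (b + 1) * (m + 1) * lam * (m * (b * (P1 * (P2 * N)))) := by rw [hG]
  have e9 := mul_le_mul_of_nonneg_left hB
    (by positivity : 0 ≤ (a + 1) * (b + 1) * (m + 1) * lam)
  have key : (P1 * P2) * ((a + 1) * (b + 1) * (m + 1) * lam * ε * n ^ 4) ≤ (P1 * P2) *
      ((a + 1) * (b + 1) * (m + 1) * b ^ 2 * n * N
        + (a + 1) * (b + 1) * (m + 1) * b ^ 2 * lam ^ 2 * n ^ 3
        + (a + 1) * (b + 1) * b ^ 2 * lam * n ^ 4
        + (b + 1) * (m + 1) * lam * n ^ 4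
        + (a + 1) * (m + 1) * a * lam * n ^ 4
        + (a + 1) * (b + 1) * (m + 1) * lam * m * b * N
        + (a + 1) * (b + 1) * (m + 1) * lam * m ^ 2 * b * N) := by
    linarith [e1, e2, e3, e4, e5, e6, e7, e8, e9]
  exact le_of_mul_le_mul_left key (by positivity)

/-- The general inequality: every choice of the sample sizes `r1`, `r2`, `r3` and of a
positive real `lam` gives a relation between the distance parameter and the number of
copies. -/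
theorem general (A : BMat n) (hn : 0 < n) (ε : ℝ)
    (hfar : ∀ B : BMat n, IsFree patL B → ε * (n : ℝ) ^ 2 ≤ (hammingDist A B : ℝ))
    (r1 r2 r3 : ℕ) (lam : ℝ) (hlam : 0 < lam) :
    ((r1 : ℝ) + 1) * ((r2 : ℝ) + 1) * (((r1 + r3 : ℕ) : ℝ) + 1) * lam * ε * (n : ℝ) ^ 4 ≤
      ((r1 : ℝ) + 1) * ((r2 : ℝ) + 1) * (((r1 + r3 : ℕ) : ℝ) + 1) * (r2 : ℝ) ^ 2 * (n : ℝ)
          * (numCopies patL A : ℝ)
      + ((r1 : ℝ) + 1) * ((r2 : ℝ) + 1) * (((r1 + r3 : ℕ) : ℝ) + 1) * (r2 : ℝ) ^ 2 * lam ^ 2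
          * (n : ℝ) ^ 3
      + ((r1 : ℝ) + 1) * ((r2 : ℝ) + 1) * (r2 : ℝ) ^ 2 * lam * (n : ℝ) ^ 4
      + ((r2 : ℝ) + 1) * (((r1 + r3 : ℕ) : ℝ) + 1) * lam * (n : ℝ) ^ 4
      + ((r1 : ℝ) + 1) * (((r1 + r3 : ℕ) : ℝ) + 1) * (r1 : ℝ) * lam * (n : ℝ) ^ 4
      + ((r1 : ℝ) + 1) * ((r2 : ℝ) + 1) * (((r1 + r3 : ℕ) : ℝ) + 1) * lam
          * ((r1 + r3 : ℕ) : ℝ) * (r2 : ℝ) * (numCopies patL A : ℝ)
      + ((r1 : ℝ) + 1) * ((r2 : ℝ) + 1) * (((r1 + r3 : ℕ) : ℝ) + 1) * lam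
          * ((r1 + r3 : ℕ) : ℝ) ^ 2 * (r2 : ℝ) * (numCopies patL A : ℝ) := by
  have hnR : (0 : ℝ) < (n : ℝ) := by exact_mod_cast hn
  have hD := tot_D A ε hfar r1 r2 r3
  have hE : (SD A r1 r2 r3 : ℝ) ≤ (n : ℝ) * ((n : ℝ) ^ (r1 + r3) * (S1 A r2 : ℝ))
      + (n : ℝ) * (S2 A r2 (r1 + r3) : ℝ) + (SU A r1 r2 r3 : ℝ) + (ST A r1 r2 r3 : ℝ)
      + (SG A r2 (r1 + r3) : ℝ) + (n : ℝ) * (SB A r2 (r1 + r3) : ℝ) := by
    exact_mod_cast tot_E A r1 r2 r3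
  have h1 := tot_R1 A r2 lam hlam
  have hM : (SM A r2 : ℝ) * (n : ℝ) ^ 2 ≤
      (r2 : ℝ) * ((r2 : ℝ) * ((n : ℝ) ^ r2 * (numCopies patL A : ℝ))) := by
    have := sum_M (r2 := r2) A
    rw [Nq_eq] at this
    unfold SM
    exact_mod_cast this
  have h2 : (((r1 + r3 : ℕ) : ℝ) + 1) * (S2 A r2 (r1 + r3) : ℝ) ≤
      (n : ℝ) ^ r2 * ((r2 : ℝ) * ((r2 : ℝ) * ((n : ℝ) ^ (r1 + r3) * (n : ℝ)))) := by
    have := tot_2 A r2 (r1 + r3)
    rw [pow_succ] at this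
    exact_mod_cast this
  have hU : ((r1 : ℝ) + 1) * (SU A r1 r2 r3 : ℝ) ≤
      (n : ℝ) ^ r2 * ((n : ℝ) ^ (r1 + r3) * (n : ℝ) ^ 2) := by
    exact_mod_cast tot_U A r1 r2 r3
  have hT : ((r2 : ℝ) + 1) * (ST A r1 r2 r3 : ℝ) ≤
      (n : ℝ) ^ (r1 + r3) * ((r1 : ℝ) * ((n : ℝ) * ((n : ℝ) ^ r2 * (n : ℝ)))) := by
    have := tot_T A r1 r2 r3
    rw [pow_succ] at this
    exact_mod_cast this
  have hG : (SG A r2 (r1 + r3) : ℝ) * (n : ℝ) ^ 2 =
      ((r1 + r3 : ℕ) : ℝ) * ((r2 : ℝ) * ((n : ℝ) ^ r2 * ((n : ℝ) ^ (r1 + r3)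
        * (numCopies patL A : ℝ)))) := by
    have := sum_G (r2 := r2) (m := r1 + r3) A
    rw [Nq_eq] at this
    unfold SG
    exact_mod_cast this
  have hB : (SB A r2 (r1 + r3) : ℝ) * (n : ℝ) ^ 3 ≤
      ((r1 + r3 : ℕ) : ℝ) * (((r1 + r3 : ℕ) : ℝ) * ((r2 : ℝ) * ((n : ℝ) ^ r2
        * ((n : ℝ) ^ (r1 + r3) * (numCopies patL A : ℝ))))) := by
    have := sum_Bd (r2 := r2) (m := r1 + r3) A
    rw [Nq_eq] at this
    unfold SB
    exact_mod_cast this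
  exact arithG (n : ℝ) (r1 : ℝ) (r2 : ℝ) ((r1 + r3 : ℕ) : ℝ) lam ε ((n : ℝ) ^ r2)
    ((n : ℝ) ^ (r1 + r3)) (numCopies patL A : ℝ) _ _ _ _ _ _ _ _ hnR (Nat.cast_nonneg _)
    (Nat.cast_nonneg _) (Nat.cast_nonneg _) hlam (by positivity) (by positivity)
    hD hE h1 hM h2 hU hT hG hB

end Vale.Agent.Lib.P037.helper17.Corner
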