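import Mathlib
import Vale.Agent.Lib.P037.Defs
import Vale.Agent.Lib.P037.helper17.Corner.Main

/-!
Choice of the sample sizes: the polynomial removal bound for the corner pattern
`[[1, 0], [0, 0]]`.
-/

namespace Vale.Agent.Lib.P037.helper17.Corner

open Finset Vale.Agent.Lib.P037

/-- Final numerics for real parameters. -/
theorem arithR (n e N a b m : ℝ) (hn : 0 < n) (he : 0 < e) (he1 : e < 1) (hN : 0 ≤ N)
    (ha : 0 ≤ a) (hb : 0 < b) (hm : 0 ≤ m)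
    (ha1 : 6 ≤ (a + 1) * e)
    (hb1 : 6 * a ≤ (b + 1) * e) (hb2 : b * e ^ 2 ≤ 43)
    (hm1 : 6 * b ^ 2 ≤ (m + 1) * e) (hm2 : (m + 1) * e ^ 5 ≤ 11103)
    (hgen : ∀ lam : ℝ, 0 < lam →
      (a + 1) * (b + 1) * (m + 1) * lam * e * n ^ 4 ≤
        (a + 1) * (b + 1) * (m + 1) * b ^ 2 * n * N
        + (a + 1) * (b + 1) * (m + 1) * b ^ 2 * lam ^ 2 * n ^ 3
        + (a + 1) * (b + 1) * b ^ 2 * lam * n ^ 4
        + (b + 1) * (m + 1) * lam * n ^ 4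
        + (a + 1) * (m + 1) * a * lam * n ^ 4
        + (a + 1) * (b + 1) * (m + 1) * lam * m * b * N
        + (a + 1) * (b + 1) * (m + 1) * lam * m ^ 2 * b * N) :
    e ^ 13 * n ^ 4 ≤ 2 * 10 ^ 10 * N := by
  have hlam : 0 < e * n / (6 * b ^ 2) := by positivity
  have h := hgen (e * n / (6 * b ^ 2)) hlam
  have hl : e * n / (6 * b ^ 2) * (6 * b ^ 2) = e * n := by field_simp
  generalize e * n / (6 * b ^ 2) = lam at h hl
  have h36 := mul_le_mul_of_nonneg_left h (by positivity : 0 ≤ 36 * b ^ 4)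
  have e1 : 36 * b ^ 4 * ((a + 1) * (b + 1) * (m + 1) * lam * e * n ^ 4)
      = 6 * b ^ 2 * ((a + 1) * (b + 1) * (m + 1)) * (lam * (6 * b ^ 2)) * e * n ^ 4 := by ring
  have e2 : 36 * b ^ 4 * ((a + 1) * (b + 1) * (m + 1) * b ^ 2 * n * N
        + (a + 1) * (b + 1) * (m + 1) * b ^ 2 * lam ^ 2 * n ^ 3
        + (a + 1) * (b + 1) * b ^ 2 * lam * n ^ 4
        + (b + 1) * (m + 1) * lam * n ^ 4
        + (a + 1) * (m + 1) * a * lam * n ^ 4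
        + (a + 1) * (b + 1) * (m + 1) * lam * m * b * N
        + (a + 1) * (b + 1) * (m + 1) * lam * m ^ 2 * b * N)
      = 36 * b ^ 6 * ((a + 1) * (b + 1) * (m + 1)) * n * N
        + ((a + 1) * (b + 1) * (m + 1)) * b ^ 2 * (lam * (6 * b ^ 2)) ^ 2 * n ^ 3
        + 6 * b ^ 4 * ((a + 1) * (b + 1)) * (lam * (6 * b ^ 2)) * n ^ 4
        + 6 * b ^ 2 * ((b + 1) * (m + 1)) * (lam * (6 * b ^ 2)) * n ^ 4
        + 6 * b ^ 2 * ((a + 1) * (m + 1)) * a * (lam * (6 * b ^ 2)) * n ^ 4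
        + 6 * b ^ 2 * ((a + 1) * (b + 1) * (m + 1)) * (lam * (6 * b ^ 2)) * m * b * N
        + 6 * b ^ 2 * ((a + 1) * (b + 1) * (m + 1)) * (lam * (6 * b ^ 2)) * m ^ 2 * b * N := by
    ring
  rw [e1, e2, hl] at h36
  have hTpos : 0 < (a + 1) * (b + 1) * (m + 1) := by positivity
  generalize hT : (a + 1) * (b + 1) * (m + 1) = T at h36 hTpos
  have h' : 6 * T * e ^ 2 * n ^ 4 ≤ 36 * T * b ^ 4 * N + T * e ^ 2 * n ^ 4
      + 6 * ((a + 1) * (b + 1)) * b ^ 2 * e * n ^ 4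
      + 6 * ((b + 1) * (m + 1)) * e * n ^ 4
      + 6 * ((a + 1) * (m + 1)) * a * e * n ^ 4
      + 6 * T * e * m * b * N + 6 * T * e * m ^ 2 * b * N := by
    have hmul : (b ^ 2 * n) * (6 * T * e ^ 2 * n ^ 4) ≤ (b ^ 2 * n) *
        (36 * T * b ^ 4 * N + T * e ^ 2 * n ^ 4
        + 6 * ((a + 1) * (b + 1)) * b ^ 2 * e * n ^ 4
        + 6 * ((b + 1) * (m + 1)) * e * n ^ 4
        + 6 * ((a + 1) * (m + 1)) * a * e * n ^ 4
        + 6 * T * e * m * b * N + 6 * T * e * m ^ 2 * b * N) := by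
      linarith [h36]
    exact le_of_mul_le_mul_left hmul (by positivity)
  have hq1 : 6 * ((a + 1) * (b + 1)) * b ^ 2 * e * n ^ 4 ≤ T * e ^ 2 * n ^ 4 := by
    have := mul_le_mul_of_nonneg_left hm1
      (by positivity : 0 ≤ (a + 1) * (b + 1) * e * n ^ 4)
    rw [← hT]
    linarith
  have hq2 : 6 * ((b + 1) * (m + 1)) * e * n ^ 4 ≤ T * e ^ 2 * n ^ 4 := by
    have := mul_le_mul_of_nonneg_left ha1
      (by positivity : 0 ≤ (b + 1) * (m + 1) * e * n ^ 4)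
    rw [← hT]
    linarith
  have hq3 : 6 * ((a + 1) * (m + 1)) * a * e * n ^ 4 ≤ T * e ^ 2 * n ^ 4 := by
    have := mul_le_mul_of_nonneg_left hb1
      (by positivity : 0 ≤ (a + 1) * (m + 1) * e * n ^ 4)
    rw [← hT]
    linarith
  have h3 : e ^ 2 * n ^ 4 ≤ (18 * b ^ 4 + 3 * e * m * b * (1 + m)) * N := by
    have hmul : (2 * T) * (e ^ 2 * n ^ 4) ≤ (2 * T) * ((18 * b ^ 4 + 3 * e * m * b * (1 + m)) * N) := by
      linarith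
    exact le_of_mul_le_mul_left hmul (by positivity)
  have hv0 : 0 ≤ b * e ^ 2 := by positivity
  have hv4 : (b * e ^ 2) ^ 4 ≤ 43 ^ 4 := pow_le_pow_left₀ hv0 hb2 4
  have he3 : e ^ 3 ≤ 1 := pow_le_one₀ he.le he1.le
  have hw0 : 0 ≤ (m + 1) * e ^ 5 := by positivity
  have hm3 : m * e ^ 5 ≤ 11103 := by
    have : 0 ≤ e ^ 5 := by positivity
    linarith
  have hm0 : 0 ≤ m * e ^ 5 := by positivity
  have hK1 : e ^ 3 * (b * e ^ 2) ^ 4 ≤ 1 * 43 ^ 4 :=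
    mul_le_mul he3 hv4 (by positivity) (by norm_num)
  have hK2 : m * e ^ 5 * (b * e ^ 2) * ((m + 1) * e ^ 5) ≤ 11103 * 43 * 11103 := by
    have i1 : m * e ^ 5 * (b * e ^ 2) ≤ 11103 * 43 := mul_le_mul hm3 hb2 hv0 (by norm_num)
    exact mul_le_mul i1 hm2 hw0 (by norm_num)
  have hK : e ^ 11 * (18 * b ^ 4 + 3 * e * m * b * (1 + m)) ≤ 2 * 10 ^ 10 := by
    have hexp : e ^ 11 * (18 * b ^ 4 + 3 * e * m * b * (1 + m))
        = 18 * (e ^ 3 * (b * e ^ 2) ^ 4) + 3 * (m * e ^ 5 * (b * e ^ 2) * ((m + 1) * e ^ 5)) := by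
      ring
    rw [hexp]
    norm_num at hK1 hK2 ⊢
    linarith
  calc e ^ 13 * n ^ 4 = e ^ 11 * (e ^ 2 * n ^ 4) := by ring
    _ ≤ e ^ 11 * ((18 * b ^ 4 + 3 * e * m * b * (1 + m)) * N) :=
        mul_le_mul_of_nonneg_left h3 (by positivity)
    _ = (e ^ 11 * (18 * b ^ 4 + 3 * e * m * b * (1 + m))) * N := by ring
    _ ≤ 2 * 10 ^ 10 * N := mul_le_mul_of_nonneg_right hK hN

/-- Polynomial removal bound for the corner pattern `[[1, 0], [0, 0]]`. -/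
theorem removal_L (n : ℕ) (A : BMat n) (ε : ℝ) (hε : 0 < ε) (hε1 : ε < 1)
    (hfar : ∀ B : BMat n, IsFree patL B → ε * (n : ℝ) ^ 2 ≤ (hammingDist A B : ℝ)) :
    ε ^ 13 * (n : ℝ) ^ 4 ≤ 2 * 10 ^ 10 * (numCopies patL A : ℝ) := by
  rcases Nat.eq_zero_or_pos n with h0 | hn
  · subst h0
    simp
  · have ha1 : 6 ≤ ((⌈6 / ε⌉₊ : ℕ) : ℝ) * ε := by
      have := Nat.le_ceil (6 / ε)
      rwa [div_le_iff₀ hε] at this
    have ha2 : ((⌈6 / ε⌉₊ : ℕ) : ℝ) * ε ≤ 7 := by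
      have h1 := Nat.ceil_lt_add_one (by positivity : (0 : ℝ) ≤ 6 / ε)
      have h2 := mul_lt_mul_of_pos_right h1 hε
      have h3 : (6 / ε + 1) * ε = 6 + ε := by field_simp
      linarith
    generalize ((⌈6 / ε⌉₊ : ℕ)) = r1 at ha1 ha2
    have hr1 : (0 : ℝ) < (r1 : ℝ) := by
      by_contra hcon
      have : (r1 : ℝ) * ε ≤ 0 := mul_nonpos_of_nonpos_of_nonneg (not_lt.mp hcon) hε.le
      linarith
    have hb1 : 6 * (r1 : ℝ) ≤ ((⌈6 * (r1 : ℝ) / ε⌉₊ : ℕ) : ℝ) * ε := by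
      have := Nat.le_ceil (6 * (r1 : ℝ) / ε)
      rwa [div_le_iff₀ hε] at this
    have hb2 : ((⌈6 * (r1 : ℝ) / ε⌉₊ : ℕ) : ℝ) * ε ^ 2 ≤ 43 := by
      have h1 := Nat.ceil_lt_add_one (by positivity : (0 : ℝ) ≤ 6 * (r1 : ℝ) / ε)
      have h2 := mul_lt_mul_of_pos_right h1 (by positivity : (0 : ℝ) < ε ^ 2)
      have h3 : (6 * (r1 : ℝ) / ε + 1) * ε ^ 2 = 6 * ((r1 : ℝ) * ε) + ε ^ 2 := by field_simp
      have h4 : ε ^ 2 < 1 := by nlinarith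
      linarith
    generalize ((⌈6 * (r1 : ℝ) / ε⌉₊ : ℕ)) = r2 at hb1 hb2
    have hr2 : (0 : ℝ) < (r2 : ℝ) := by
      by_contra hcon
      have : (r2 : ℝ) * ε ≤ 0 := mul_nonpos_of_nonpos_of_nonneg (not_lt.mp hcon) hε.le
      linarith
    have hc1 : 6 * (r2 : ℝ) ^ 2 ≤ ((⌈6 * (r2 : ℝ) ^ 2 / ε⌉₊ : ℕ) : ℝ) * ε := by
      have := Nat.le_ceil (6 * (r2 : ℝ) ^ 2 / ε)
      rwa [div_le_iff₀ hε] at this
    have hc2 : ((⌈6 * (r2 : ℝ) ^ 2 / ε⌉₊ : ℕ) : ℝ) * ε ^ 5 ≤ 11095 := by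
      have h1 := Nat.ceil_lt_add_one (by positivity : (0 : ℝ) ≤ 6 * (r2 : ℝ) ^ 2 / ε)
      have h2 := mul_lt_mul_of_pos_right h1 (by positivity : (0 : ℝ) < ε ^ 5)
      have h3 : (6 * (r2 : ℝ) ^ 2 / ε + 1) * ε ^ 5 = 6 * ((r2 : ℝ) * ε ^ 2) ^ 2 + ε ^ 5 := by
        field_simp
      have h4 : ε ^ 5 ≤ 1 := pow_le_one₀ hε.le hε1.le
      have h5 : ((r2 : ℝ) * ε ^ 2) ^ 2 ≤ 43 ^ 2 := pow_le_pow_left₀ (by positivity) hb2 2
      linarith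
    generalize ((⌈6 * (r2 : ℝ) ^ 2 / ε⌉₊ : ℕ)) = r3 at hc1 hc2
    have hm2 : ((((r1 + r3 : ℕ) : ℝ)) + 1) * ε ^ 5 ≤ 11103 := by
      have h4 : ε ^ 5 ≤ 1 := pow_le_one₀ hε.le hε1.le
      have h5 : ε ^ 4 ≤ 1 := pow_le_one₀ hε.le hε1.le
      have h6 : (r1 : ℝ) * ε ^ 5 ≤ 7 := by
        have : (r1 : ℝ) * ε ^ 5 = ((r1 : ℝ) * ε) * ε ^ 4 := by ring
        rw [this]
        have h7 : 0 ≤ (r1 : ℝ) * ε := by positivity
        nlinarith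
      push_cast
      nlinarith
    have hm1 : 6 * (r2 : ℝ) ^ 2 ≤ ((((r1 + r3 : ℕ) : ℝ)) + 1) * ε := by
      push_cast
      nlinarith
    exact arithR (n : ℝ) ε (numCopies patL A : ℝ) (r1 : ℝ) (r2 : ℝ) ((r1 + r3 : ℕ) : ℝ)
      (by exact_mod_cast hn) hε hε1 (Nat.cast_nonneg _) (Nat.cast_nonneg _) hr2
      (Nat.cast_nonneg _) (by linarith) (by linarith) hb2 hm1 hm2
      (fun lam hlam => general A hn ε hfar r1 r2 r3 lam hlam)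

end Vale.Agent.Lib.P037.helper17.Corner
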